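import Mathlib

open scoped RealInnerProductSpace

namespace Vale.Agent.Results.P208.A_OrthogonalFamilies

/-- `IsDoublingWith X lam`: the subset `X` of the metric space `E` is doubling with constant at
most `lam`, i.e. every closed ball of `X` (centre `x ∈ X`, radius `r > 0`) is covered by at most
`lam` closed balls of half the radius whose centres lie in `X`. -/
def IsDoublingWith {E : Type*} [PseudoMetricSpace E] (X : Set E) (lam : ℕ) : Prop :=
  ∀ x ∈ X, ∀ r : ℝ, 0 < r → ∃ C : Finset E, (↑C : Set E) ⊆ X ∧ C.card ≤ lam ∧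
    X ∩ Metric.closedBall x r ⊆ ⋃ c ∈ C, Metric.closedBall c (r / 2)

section
variable {E : Type*} [NormedAddCommGroup E] [InnerProductSpace ℝ E]

open Classical in
/-- index `j` of the dyadic shell `2^j < ‖x‖^2 ≤ 2^(j+1)` containing `x ≠ 0`. -/
noncomputable def shellIdx (x : E) : ℤ :=
  if h : x = 0 then 0 else
    Classical.choose (exists_mem_Ioc_zpow (x := ‖x‖ ^ 2) (y := (2 : ℝ))
      (by have := norm_pos_iff.mpr h; positivity) (by norm_num))

omit [InnerProductSpace ℝ E] in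
theorem shellIdx_spec {x : E} (hx : x ≠ 0) :
    (2 : ℝ) ^ (shellIdx x) < ‖x‖ ^ 2 ∧ ‖x‖ ^ 2 ≤ (2 : ℝ) ^ (shellIdx x + 1) := by
  unfold shellIdx
  rw [dif_neg hx]
  exact Classical.choose_spec (exists_mem_Ioc_zpow (x := ‖x‖ ^ 2) (y := (2 : ℝ))
      (by have := norm_pos_iff.mpr hx; positivity) (by norm_num))

theorem orth_dist_sq {X : Set E} (horth : ∀ x ∈ X, ∀ y ∈ X, x ≠ y → inner ℝ x y = 0)
    {x y : E} (hx : x ∈ X) (hy : y ∈ X) (hxy : x ≠ y) :
    ‖x - y‖ ^ 2 = ‖x‖ ^ 2 + ‖y‖ ^ 2 := by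
  rw [norm_sub_sq_real, horth x hx y hy hxy]; ring

theorem le_of_sq_le_sq' {a b : ℝ} (hb : 0 ≤ b) (h : a ^ 2 ≤ b ^ 2) : a ≤ b := by
  by_contra hc
  have hc' : b < a := not_le.mp hc
  nlinarith

/-- each shell of an orthogonal doubling set has at most `lam` points -/
theorem shell_finset {X : Set E} {lam : ℕ} (horth : ∀ x ∈ X, ∀ y ∈ X, x ≠ y → inner ℝ x y = 0)
    (hdbl : IsDoublingWith X lam) (j : ℤ) :
    ∃ C : Finset E, C.card ≤ lam ∧ ∀ x ∈ X, x ≠ 0 → shellIdx x = j → x ∈ C := by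
  by_cases h : ∃ x0 ∈ X, x0 ≠ 0 ∧ shellIdx x0 = j
  · obtain ⟨x0, hx0, hx0ne, hx0j⟩ := h
    have hpow : (0 : ℝ) < (2 : ℝ) ^ j := by positivity
    set ρ : ℝ := Real.sqrt ((2 : ℝ) ^ j) with hρ
    have hρpos : 0 < ρ := Real.sqrt_pos.mpr hpow
    have hρsq : ρ ^ 2 = (2 : ℝ) ^ j := Real.sq_sqrt hpow.le
    have h2 : (2 : ℝ) ^ (j + 1) = 2 * (2 : ℝ) ^ j := by
      rw [zpow_add_one₀ (by norm_num : (2 : ℝ) ≠ 0)]; ring
    obtain ⟨C, hCX, hCcard, hcov⟩ := hdbl x0 hx0 (2 * ρ) (by positivity)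
    refine ⟨C, hCcard, ?_⟩
    intro x hx hxne hxj
    have hsx := shellIdx_spec hxne
    have hsx0 := shellIdx_spec hx0ne
    rw [hxj] at hsx
    rw [hx0j] at hsx0
    have hxball : x ∈ X ∩ Metric.closedBall x0 (2 * ρ) := by
      refine ⟨hx, ?_⟩
      rw [Metric.mem_closedBall, dist_eq_norm]
      by_cases hxx0 : x = x0
      · subst hxx0; simp; positivity
      · have hd := orth_dist_sq horth hx hx0 hxx0
        apply le_of_sq_le_sq' (by positivity)
        nlinarith [hsx.2, hsx0.2]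
    have hmem := hcov hxball
    simp only [Set.mem_iUnion, Metric.mem_closedBall, exists_prop] at hmem
    obtain ⟨c, hcC, hdist⟩ := hmem
    have hcx : x = c := by
      by_contra hne
      have hcX : c ∈ X := hCX hcC
      have hd := orth_dist_sq horth hx hcX hne
      rw [dist_eq_norm] at hdist
      have h1 : (2 * ρ / 2) = ρ := by ring
      rw [h1] at hdist
      have h3 : ‖x - c‖ ^ 2 ≤ ρ ^ 2 := by
        have := norm_nonneg (x - c)
        nlinarith
      have h4 : 0 ≤ ‖c‖ ^ 2 := by positivity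
      nlinarith [hsx.1]
    rw [hcx]; exact hcC
  · refine ⟨∅, by simp, ?_⟩
    intro x hx hxne hxj
    exact absurd ⟨x, hx, hxne, hxj⟩ h

omit [NormedAddCommGroup E] [InnerProductSpace ℝ E] in
/-- injective labelling of a finset by numbers below its cardinality -/
theorem finset_label (C : Finset E) :
    ∃ g : E → ℕ, (∀ x ∈ C, g x < C.card) ∧ ∀ x ∈ C, ∀ y ∈ C, g x = g y → x = y := by
  classical
  refine ⟨fun x => if h : x ∈ C then (C.equivFin ⟨x, h⟩ : ℕ) else 0, ?_, ?_⟩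
  · intro x hx
    simp only [dif_pos hx]
    exact (C.equivFin ⟨x, hx⟩).isLt
  · intro x hx y hy hxy
    simp only [dif_pos hx, dif_pos hy] at hxy
    have := C.equivFin.injective (Fin.val_injective hxy)
    exact congrArg Subtype.val this

theorem aux_far {a b d : ℝ} (ha : 0 ≤ a) (hb : 0 ≤ b) (hd : 0 ≤ d)
    (hd2 : d ^ 2 = a ^ 2 + b ^ 2) (h : 2 * a ^ 2 < b ^ 2) :
    (1 / 5 : ℝ) * d ≤ |a - b| ∧ |a - b| ≤ d := by
  have hab : a ≤ b := by
    apply le_of_sq_le_sq' hb; nlinarith [sq_nonneg a]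
  have h34 : 4 * a ≤ 3 * b := by
    by_contra hc
    have hc' : 3 * b < 4 * a := not_le.mp hc
    nlinarith
  rw [abs_sub_comm, abs_of_nonneg (by linarith : (0 : ℝ) ≤ b - a)]
  constructor
  · have : d ≤ 5 * (b - a) := by
      apply le_of_sq_le_sq' (by linarith)
      nlinarith [mul_nonneg (by linarith : (0 : ℝ) ≤ 3 * b - 4 * a) (by linarith : (0 : ℝ) ≤ 4 * b - 3 * a)]
    linarith
  · have : b ≤ d := by
      apply le_of_sq_le_sq' hd; nlinarith [sq_nonneg a]
    linarith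

theorem norm_single_sub (m : ℕ) (i j : Fin m) (a b : ℝ) :
    ‖a • (EuclideanSpace.single i (1 : ℝ)) - b • (EuclideanSpace.single j (1 : ℝ))‖ ^ 2
      = a ^ 2 + b ^ 2 - 2 * a * b * (if i = j then 1 else 0) := by
  rw [norm_sub_sq_real, norm_smul, norm_smul, inner_smul_left, inner_smul_right]
  simp [EuclideanSpace.inner_single_left]
  split_ifs <;> ring_nf

end

/-- Lang-Plaut for orthogonal families. Let `E` be any real inner product space (for instance
the sequence space `l_2`), and let `X ⊆ E` be a set whose distinct points are pairwise orthogonal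
and which is doubling with constant at most `lam`. Then `X` admits a bi-Lipschitz embedding `f`
into the Euclidean space of dimension `2 * lam` with distortion at most `5`: for all `x, y ∈ X`,
one fifth of `‖x - y‖` is at most `‖f x - f y‖`, which is at most `‖x - y‖`. -/
theorem result {E : Type*} [NormedAddCommGroup E] [InnerProductSpace ℝ E] (X : Set E) (lam : ℕ)
    (horth : ∀ x ∈ X, ∀ y ∈ X, x ≠ y → inner ℝ x y = 0)
    (hdbl : IsDoublingWith X lam) :
    ∃ f : E → EuclideanSpace ℝ (Fin (2 * lam)),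
      ∀ x ∈ X, ∀ y ∈ X, (1 / 5 : ℝ) * ‖x - y‖ ≤ ‖f x - f y‖ ∧ ‖f x - f y‖ ≤ ‖x - y‖ := by
  classical
  -- labels inside each shell
  have hlab : ∀ j : ℤ, ∃ g : E → ℕ, (∀ x ∈ X, x ≠ 0 → shellIdx x = j → g x < lam) ∧
      (∀ x ∈ X, ∀ y ∈ X, x ≠ 0 → y ≠ 0 → shellIdx x = j → shellIdx y = j → g x = g y → x = y) := by
    intro j
    obtain ⟨C, hCcard, hC⟩ := shell_finset horth hdbl j
    obtain ⟨g, hg1, hg2⟩ := finset_label C
    refine ⟨g, ?_, ?_⟩
    · intro x hx hxne hxj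
      exact lt_of_lt_of_le (hg1 x (hC x hx hxne hxj)) hCcard
    · intro x hx y hy hxne hyne hxj hyj hxy
      exact hg2 x (hC x hx hxne hxj) y (hC y hy hyne hyj) hxy
  choose G hG1 hG2 using hlab
  -- index of the coordinate used by `x`
  set n : E → ℕ := fun x => 2 * G (shellIdx x) x + (shellIdx x % 2).toNat with hn
  have hpar : ∀ x : E, (shellIdx x % 2).toNat ≤ 1 := by
    intro x
    rcases Int.emod_two_eq_zero_or_one (shellIdx x) with h | h <;> rw [h] <;> simp
  have hnlt : ∀ x ∈ X, x ≠ 0 → n x < 2 * lam := by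
    intro x hx hxne
    have h1 := hG1 (shellIdx x) x hx hxne rfl
    have h2 := hpar x
    simp only [hn]
    omega
  let f : E → EuclideanSpace ℝ (Fin (2 * lam)) := fun x =>
    if h : n x < 2 * lam then ‖x‖ • EuclideanSpace.single (⟨n x, h⟩ : Fin (2 * lam)) (1 : ℝ) else 0
  have hf0 : f 0 = 0 := by
    simp only [f]
    split_ifs <;> simp
  have hfx : ∀ x ∈ X, ∀ hxne : x ≠ 0, ∀ h : n x < 2 * lam,
      f x = ‖x‖ • EuclideanSpace.single (⟨n x, h⟩ : Fin (2 * lam)) (1 : ℝ) := by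
    intro x hx hxne h
    simp only [f]
    rw [dif_pos h]
  have hfnorm : ∀ x ∈ X, x ≠ 0 → ‖f x‖ = ‖x‖ := by
    intro x hx hxne
    rw [hfx x hx hxne (hnlt x hx hxne), norm_smul]
    simp
  refine ⟨f, ?_⟩
  intro x hx y hy
  by_cases hxy : x = y
  · subst hxy; simp
  have hd := orth_dist_sq horth hx hy hxy
  by_cases hx0 : x = 0
  · subst hx0
    have hy0 : y ≠ 0 := fun h => hxy h.symm
    rw [hf0, zero_sub, zero_sub, norm_neg, norm_neg, hfnorm y hy hy0]
    constructor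
    · have := norm_nonneg y; linarith
    · exact le_rfl
  by_cases hy0 : y = 0
  · subst hy0
    rw [hf0, sub_zero, sub_zero, hfnorm x hx hx0]
    constructor
    · have := norm_nonneg x; linarith
    · exact le_rfl
  have hnx := hnlt x hx hx0
  have hny := hnlt y hy hy0
  rw [hfx x hx hx0 hnx, hfx y hy hy0 hny]
  have key := norm_single_sub (2 * lam) ⟨n x, hnx⟩ ⟨n y, hny⟩ ‖x‖ ‖y‖
  set v := ‖x‖ • EuclideanSpace.single (⟨n x, hnx⟩ : Fin (2 * lam)) (1 : ℝ)
      - ‖y‖ • EuclideanSpace.single (⟨n y, hny⟩ : Fin (2 * lam)) (1 : ℝ) with hv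
  have hvnn : 0 ≤ ‖v‖ := norm_nonneg v
  have hdnn : 0 ≤ ‖x - y‖ := norm_nonneg _
  by_cases hij : (⟨n x, hnx⟩ : Fin (2 * lam)) = ⟨n y, hny⟩
  · -- same coordinate: the shells are at distance at least two
    rw [if_pos hij] at key
    have hnxy : n x = n y := congrArg Fin.val hij
    have hvabs : ‖v‖ = |‖x‖ - ‖y‖| := by
      have h1 : ‖v‖ ^ 2 = (‖x‖ - ‖y‖) ^ 2 := by rw [key]; ring
      rw [← abs_of_nonneg hvnn]
      exact (sq_eq_sq_iff_abs_eq_abs _ _).mp h1
    have hpx := hpar x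
    have hpy := hpar y
    simp only [hn] at hnxy
    have hGeq : G (shellIdx x) x = G (shellIdx y) y := by omega
    have hpeq : (shellIdx x % 2).toNat = (shellIdx y % 2).toNat := by omega
    have hjne : shellIdx x ≠ shellIdx y := by
      intro hj
      apply hxy
      apply hG2 (shellIdx x) x hx y hy hx0 hy0 rfl hj.symm
      rw [hGeq, hj]
    have hmod : shellIdx x % 2 = shellIdx y % 2 := by
      rcases Int.emod_two_eq_zero_or_one (shellIdx x) with h1 | h1 <;>
        rcases Int.emod_two_eq_zero_or_one (shellIdx y) with h2 | h2 <;>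
        rw [h1, h2] at hpeq <;> simp at hpeq <;> omega
    have hsx := shellIdx_spec hx0
    have hsy := shellIdx_spec hy0
    have h2pow : ∀ j : ℤ, (2 : ℝ) ^ (j + 2) = 2 * (2 : ℝ) ^ (j + 1) := by
      intro j
      rw [show j + 2 = (j + 1) + 1 by ring, zpow_add_one₀ (by norm_num : (2 : ℝ) ≠ 0)]; ring
    rw [hvabs]
    rcases (by omega : shellIdx x + 2 ≤ shellIdx y ∨ shellIdx y + 2 ≤ shellIdx x) with hfar | hfar
    · have hmono : (2 : ℝ) ^ (shellIdx x + 2) ≤ (2 : ℝ) ^ (shellIdx y) :=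
        zpow_le_zpow_right₀ (by norm_num) hfar
      have hlt : 2 * ‖x‖ ^ 2 < ‖y‖ ^ 2 := by
        have := h2pow (shellIdx x)
        nlinarith [hsx.2, hsy.1]
      exact aux_far (norm_nonneg x) (norm_nonneg y) hdnn hd hlt
    · have hmono : (2 : ℝ) ^ (shellIdx y + 2) ≤ (2 : ℝ) ^ (shellIdx x) :=
        zpow_le_zpow_right₀ (by norm_num) hfar
      have hlt : 2 * ‖y‖ ^ 2 < ‖x‖ ^ 2 := by
        have := h2pow (shellIdx y)
        nlinarith [hsy.2, hsx.1]
      have hd' : ‖x - y‖ ^ 2 = ‖y‖ ^ 2 + ‖x‖ ^ 2 := by rw [hd]; ring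
      rw [abs_sub_comm]
      exact aux_far (norm_nonneg y) (norm_nonneg x) hdnn hd' hlt
  · -- different coordinates: exact isometry
    rw [if_neg hij] at key
    have heq : ‖v‖ = ‖x - y‖ := by
      have h1 : ‖v‖ ^ 2 = ‖x - y‖ ^ 2 := by rw [key, hd]; ring
      have h2 := (sq_eq_sq_iff_abs_eq_abs _ _).mp h1
      rwa [abs_of_nonneg hvnn, abs_of_nonneg hdnn] at h2
    rw [heq]
    constructor
    · linarith
    · exact le_rfl

end Vale.Agent.Results.P208.A_OrthogonalFamilies
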